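import Vale.Agent.P088.H442.C.Defs

/-!
# P088, Theorem C: isotropy at low frequencies (row C_IS)
-/

open MeasureTheory Set
open scoped ContDiff Matrix

noncomputable section

namespace Vale.Agent.P088.H236

open LR LR.CF LR.CC

variable {n : ℕ}

theorem nr_sq (ξ : V n) : nr ξ ^ 2 = ∑ j, ξ j ^ 2 :=
  Real.sq_sqrt (Finset.sum_nonneg fun _ _ => sq_nonneg _)

theorem nr_nonneg (ξ : V n) : 0 ≤ nr ξ := Real.sqrt_nonneg _

theorem abs_le_nr (ξ : V n) (j : Fin n) : |ξ j| ≤ nr ξ := by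
  apply Real.abs_le_sqrt
  exact Finset.single_le_sum (f := fun j => ξ j ^ 2) (fun _ _ => sq_nonneg _) (Finset.mem_univ j)

theorem bal_sub_core : bal n ⊆ core n := by
  intro x hx j
  have h1 : (x j - 1 / 2) ^ 2 ≤ 1 / 16 :=
    (Finset.single_le_sum (f := fun j => (x j - 1 / 2) ^ 2) (fun _ _ => sq_nonneg _)
      (Finset.mem_univ j)).trans hx
  constructor <;> nlinarith

/-- The moved frequency. -/
def mvq (Y : ℝ) (ξ : V n) : V n := fun j => ξ j + (if 0 ≤ ξ j then 1 else -1) / Y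

theorem abs_mvq {Y : ℝ} (hY : 0 < Y) (ξ : V n) (j : Fin n) : |mvq Y ξ j| = |ξ j| + 1 / Y := by
  unfold mvq
  have h1 : 0 < 1 / Y := by positivity
  split_ifs with h
  · rw [abs_of_nonneg h, abs_of_nonneg (by positivity)]
  · push Not at h
    rw [abs_of_neg h, abs_of_neg (by rw [neg_div]; linarith), neg_div]
    ring

theorem nr_mvq {Y : ℝ} (hY : 1 ≤ Y) (hn : (n : ℝ) ≤ Y) (ξ : V n) : nr (mvq Y ξ) ≤ nr ξ + 1 := by
  have h0 := nr_nonneg ξ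
  refine Real.sqrt_le_iff.2 ⟨by linarith, ?_⟩
  have h1 : ∀ j, mvq Y ξ j ^ 2 ≤ ξ j ^ 2 + (2 * nr ξ / Y + 1 / Y) := by
    intro j
    have h2 : (1 / Y) ^ 2 ≤ 1 / Y := by
      rw [sq]
      have : 1 / Y ≤ 1 := by rw [div_le_one (by linarith)]; exact hY
      nlinarith [show 0 < 1 / Y by positivity]
    have h3 := abs_le_nr ξ j
    rw [← sq_abs, abs_mvq (by linarith), ← sq_abs (ξ j)]
    have h4 : |ξ j| * (1 / Y) ≤ nr ξ * (1 / Y) :=
      mul_le_mul_of_nonneg_right h3 (by positivity)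
    have h5 : 2 * nr ξ / Y = 2 * (nr ξ * (1 / Y)) := by ring
    rw [h5]
    nlinarith
  calc ∑ j, mvq Y ξ j ^ 2 ≤ ∑ j, (ξ j ^ 2 + (2 * nr ξ / Y + 1 / Y)) :=
        Finset.sum_le_sum fun j _ => h1 j
    _ = nr ξ ^ 2 + n * (2 * nr ξ / Y + 1 / Y) := by
        rw [Finset.sum_add_distrib, ← nr_sq, Finset.sum_const, Finset.card_univ,
          Fintype.card_fin, nsmul_eq_mul]
    _ ≤ nr ξ ^ 2 + Y * (2 * nr ξ / Y + 1 / Y) := by
        have : 0 ≤ 2 * nr ξ / Y + 1 / Y := by positivity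
        nlinarith
    _ = (nr ξ + 1) ^ 2 := by
        field_simp
        ring

theorem nr_sub_mvq {Y : ℝ} (hY : 0 < Y) (ξ : V n) :
    nr (fun j => ξ j - mvq Y ξ j) ≤ n / Y := by
  refine Real.sqrt_le_iff.2 ⟨by positivity, ?_⟩
  have h1 : ∀ j, (ξ j - mvq Y ξ j) ^ 2 = (1 / Y) ^ 2 := by
    intro j
    unfold mvq
    split_ifs <;> ring
  simp only [h1, Finset.sum_const, Finset.card_univ, Fintype.card_fin, nsmul_eq_mul]
  rcases Nat.eq_zero_or_pos n with h | h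
  · subst h; simp
  · have : (1 : ℝ) ≤ n := by exact_mod_cast h
    have h2 : 0 ≤ (1 / Y) ^ 2 := sq_nonneg _
    have h3 : (n / Y) ^ 2 = (n : ℝ) * ((n : ℝ) * (1 / Y) ^ 2) := by ring
    rw [h3]
    exact mul_le_mul_of_nonneg_left (by nlinarith) (by linarith)

/-- The final arithmetic. -/
theorem arith {C₁ C₂ C₃ C₄ N Y a x y R : ℝ} (h1 : 1 ≤ C₁) (h2 : 1 ≤ C₂) (h3 : 1 ≤ C₃)
    (h4 : 1 ≤ C₄) (hN : 0 ≤ N) (hY : 1 ≤ Y) (ha : 0 ≤ a) (hx : 0 ≤ x) (hy : 0 < y)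
    (hxy : y ≤ x + 1)
    (hR : R ≤ C₃ * ((C₁ + C₂) * (4 * (1 + x) ^ 2) * (a / Y ^ 2 + Y ^ 2 * a ^ 2)) / ((1 / Y) / y)
      + 2 * (C₄ * a * (N / Y))) :
    R ≤ (C₁ + C₂ + (N + 2) + (C₃ * ((C₁ + C₂) * 4) + 2 * (C₄ * N))) * (1 + x) ^ 3 *
      (a / Y + Y ^ 3 * a ^ 2) := by
  refine hR.trans ?_
  have hY0 : 0 < Y := by linarith
  set T : ℝ := (1 + x) ^ 3 * (a / Y + Y ^ 3 * a ^ 2) with hT
  have hT0 : 0 ≤ T := by positivity
  have e1 : C₃ * ((C₁ + C₂) * (4 * (1 + x) ^ 2) * (a / Y ^ 2 + Y ^ 2 * a ^ 2)) / ((1 / Y) / y)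
      ≤ C₃ * ((C₁ + C₂) * 4) * T := by
    have e2 : C₃ * ((C₁ + C₂) * (4 * (1 + x) ^ 2) * (a / Y ^ 2 + Y ^ 2 * a ^ 2)) / ((1 / Y) / y)
        = C₃ * ((C₁ + C₂) * 4) * ((1 + x) ^ 2 * y * (a / Y + Y ^ 3 * a ^ 2)) := by
      field_simp
    rw [e2, hT]
    apply mul_le_mul_of_nonneg_left _ (by positivity)
    apply mul_le_mul_of_nonneg_right _ (by positivity)
    have : (1 + x) ^ 3 = (1 + x) ^ 2 * (x + 1) := by ring
    rw [this]
    exact mul_le_mul_of_nonneg_left hxy (by positivity)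
  have e3 : C₄ * a * (N / Y) ≤ C₄ * N * T := by
    have e4 : C₄ * a * (N / Y) = C₄ * N * (1 * (a / Y)) := by ring
    rw [e4, hT]
    apply mul_le_mul_of_nonneg_left _ (by positivity)
    apply mul_le_mul _ _ (by positivity) (by positivity)
    · exact one_le_pow₀ (by linarith)
    · have : 0 ≤ Y ^ 3 * a ^ 2 := by positivity
      linarith
  have e5 : 0 ≤ (C₁ + C₂ + (N + 2)) * T := by positivity
  have e6 : (C₁ + C₂ + (N + 2) + (C₃ * ((C₁ + C₂) * 4) + 2 * (C₄ * N))) * (1 + x) ^ 3 *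
      (a / Y + Y ^ 3 * a ^ 2) = (C₁ + C₂ + (N + 2)) * T + (C₃ * ((C₁ + C₂) * 4) * T +
        2 * (C₄ * N * T)) := by rw [hT]; ring
  rw [e6]
  linarith

theorem ent_facts {Ω : Set (V n)} {φ q₀ : V n → ℝ} {t : MF n} {q : V n → ℝ}
    (hB : Bt Ω φ q₀ t q) (i j : Fin n) : ContDiff ℝ ∞ (ent t i j) ∧
    (∀ x ∉ core n, ent t i j x = 0) ∧ ent t i j = ent t j i := by
  refine ⟨?_, ?_, ?_⟩
  · exact Complex.ofRealCLM.contDiff.comp ((hB.sm i j).sub contDiff_const)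
  · intro x hx
    unfold ent
    rw [hB.off x fun h => hx (bal_sub_core (hB.sub h)), sub_self, Complex.ofReal_zero]
  · funext x
    unfold ent
    rw [(hB.sy x).apply j i, Matrix.one_apply, Matrix.one_apply]
    simp only [eq_comm]

/-- Moving the frequency. -/
theorem move {C₄ Y a : ℝ} (hC : 1 ≤ C₄) (hY : 0 < Y) (ha : 0 ≤ a) {h : Fin n → Fin n → V n → ℂ}
    {ξ η : V n} (hη : nr (fun j => ξ j - η j) ≤ n / Y)
    (lp : ∀ i j, ‖ft (h i j) ξ - ft (h i j) η‖ ≤ C₄ * a * nr (fun j => ξ j - η j))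
    {K : ℝ} {i j l : Fin n}
    (key : ‖ft (h i j) η - (if i = j then ft (h l l) η else 0)‖ ≤ K) :
    ‖ft (h i j) ξ - (if i = j then ft (h l l) ξ else 0)‖ ≤ K + 2 * (C₄ * a * (n / Y)) := by
  have mv : ∀ i j, ‖ft (h i j) ξ - ft (h i j) η‖ ≤ C₄ * a * (n / Y) := fun i j =>
    (lp i j).trans (mul_le_mul_of_nonneg_left hη (by positivity))
  have h0 : 0 ≤ C₄ * a * (n / Y) := by positivity
  split_ifs at key ⊢ with hij
  · have : ft (h i j) ξ - ft (h l l) ξ = (ft (h i j) η - ft (h l l) η) +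
      ((ft (h i j) ξ - ft (h i j) η) - (ft (h l l) ξ - ft (h l l) η)) := by ring
    rw [this]
    refine (norm_add_le _ _).trans (add_le_add key ((norm_sub_le _ _).trans ?_))
    linarith [mv i j, mv l l]
  · have : ft (h i j) ξ - 0 = (ft (h i j) η - 0) + (ft (h i j) ξ - ft (h i j) η) := by ring
    rw [this]
    refine (norm_add_le _ _).trans (add_le_add key ?_)
    linarith [mv i j]

theorem isC (hGE : RowGEC) (hNU : RowNUC) (hAL : RowALC) (hLP : RowLPC) : RowISC := by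
  intro n hn B
  obtain ⟨C₁, hC₁, ge⟩ := hGE n B
  obtain ⟨C₂, hC₂, nu⟩ := hNU n B
  obtain ⟨C₃, hC₃, al⟩ := hAL n hn
  obtain ⟨C₄, hC₄, lp⟩ := hLP n
  have hn0 : (0 : ℝ) ≤ n := Nat.cast_nonneg n
  have hR : 0 ≤ C₃ * ((C₁ + C₂) * 4) + 2 * (C₄ * n) := by positivity
  refine ⟨C₁ + C₂ + (n + 2) + (C₃ * ((C₁ + C₂) * 4) + 2 * (C₄ * n)), by linarith, ?_⟩
  intro Y hY jj hjj Ω φ q₀ t q hB hq a ha hS hCa hG ξ hξ i j l
  have hY2 : 2 ≤ Y := by linarith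
  have hY0 : 0 < Y := by linarith
  have hYn : (n : ℝ) ≤ Y := by linarith
  have hYs : Y ≤ Y ^ 2 := by nlinarith
  have hXa : ∀ c : ℝ, c ≤ C₁ + C₂ → c * Y ^ 2 * a ≤ 1 := by
    intro c hc
    refine le_trans ?_ hCa
    have h1 : 0 ≤ Y ^ 2 * a := by positivity
    have h2 : c ≤ C₁ + C₂ + (n + 2) + (C₃ * ((C₁ + C₂) * 4) + 2 * (C₄ * n)) := by linarith
    rw [mul_assoc, mul_assoc]
    exact mul_le_mul_of_nonneg_right h2 h1
  have hx0 := nr_nonneg ξ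
  have hη1 : nr (mvq Y ξ) ≤ nr ξ + 1 := nr_mvq (by linarith) hYn ξ
  have hηY : ∀ j, 1 / Y ≤ |mvq Y ξ j| := by
    intro j; rw [abs_mvq hY0]; linarith [abs_nonneg (ξ j)]
  have hηp : 1 / Y ≤ nr (mvq Y ξ) := (hηY ⟨0, by omega⟩).trans (abs_le_nr _ _)
  have hη0 : 0 < nr (mvq Y ξ) := lt_of_lt_of_le (by positivity) hηp
  have hη2 : 2 * nr (mvq Y ξ) ≤ Y ^ 2 := by nlinarith
  have he0 : 0 ≤ a / Y ^ 2 + Y ^ 2 * a ^ 2 := by positivity
  have hsq : (1 + nr (mvq Y ξ)) ^ 2 ≤ 4 * (1 + nr ξ) ^ 2 := by nlinarith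
  have hbd : ∀ c : ℝ, 0 ≤ c → c ≤ C₁ + C₂ →
      c * (1 + nr (mvq Y ξ)) ^ 2 * (a / Y ^ 2 + Y ^ 2 * a ^ 2) ≤
        (C₁ + C₂) * (4 * (1 + nr ξ) ^ 2) * (a / Y ^ 2 + Y ^ 2 * a ^ 2) := by
    intro c hc0 hc
    apply mul_le_mul_of_nonneg_right _ he0
    exact mul_le_mul hc hsq (by positivity) (by linarith)
  have key := al (fun i j => ft (ent t i j) (mvq Y ξ))
    (fun i j => by rw [(ent_facts hB i j).2.2]) (mvq Y ξ)
    ((C₁ + C₂) * (4 * (1 + nr ξ) ^ 2) * (a / Y ^ 2 + Y ^ 2 * a ^ 2))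
    ((1 / Y) / nr (mvq Y ξ)) (by positivity) (by positivity)
    ((div_le_one hη0).2 hηp) hη0
    (fun j => by rw [div_mul_cancel₀ _ hη0.ne']; exact hηY j)
    (fun e' p h1 h2 h3 h4 h5 => (nu (mvq Y ξ) e' p h1 h2 h3 h4 h5 (Y ^ 2) (by linarith) hη2
      Ω φ q₀ t q hB hq a ha hS (hXa C₂ (by linarith))).trans
        (hbd C₂ (by linarith) (by linarith)))
    jj hjj
    (fun i => by
      obtain ⟨g, h1, h2⟩ := ge (Y ^ 2) (by linarith) jj hjj Ω φ q₀ t q hB hq a ha hS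
        (hXa C₁ (by linarith)) hG i (mvq Y ξ)
      exact ⟨g, h1.trans (hbd C₁ (by linarith) (by linarith)),
        h2.trans (hbd C₁ (by linarith) (by linarith))⟩) i j l
  have bdE : ∀ i j x, ‖ent t i j x‖ ≤ a := by
    intro i j x
    have := hS.1 i j 0 (by omega) x
    rwa [norm_iteratedFDeriv_zero] at this
  have fin := move hC₄ hY0 ha (nr_sub_mvq hY0 ξ)
    (fun i j => (lp _ (ent_facts hB i j).1 (ent_facts hB i j).2.1 a (bdE i j)).2 ξ (mvq Y ξ)) key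
  exact arith hC₁ hC₂ hC₃ hC₄ hn0 (by linarith) ha hx0 hη0 hη1 fin

end Vale.Agent.P088.H236
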